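import Crest.Agent.Helper96.S0151.Defs

/-!
# S0151 — leaf C9b (helper65): `integral_log_unbounded`

Monotone convergence: `0 ≤ log 2 - log (w² + ε)` increases, as `ε ↓ 0`, to something that is
at least `- log w` wherever `w > 0`; `hlog` says that `- log w` has infinite integral.
The file is self-contained over `Defs` (it re-proves the three elementary facts about `weight`
it needs under primed names).
-/

set_option autoImplicit false

open MeasureTheory Crest.AnalysisR.ProductShift
open scoped ENNReal

namespace Crest.Agent.Helper65.S0151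

open Crest.Agent.Helper96.S0151

theorem measurable_dropCost' (θ c : ℕ → ℝ) : Measurable (dropCost θ c) := by
  unfold dropCost
  refine Measurable.tsum fun i => ?_
  refine ENNReal.measurable_ofReal.comp (measurable_const.mul ?_)
  have h1 : Measurable fun x : ℕ → ℝ => x i + θ i := (measurable_pi_apply i).add measurable_const
  exact (measurable_from_top (f := fun n : ℤ => (n : ℝ))).comp h1.floor

theorem measurable_weight' (θ c : ℕ → ℝ) : Measurable (weight θ c) := by
  have hd := measurable_dropCost' θ c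
  unfold weight
  refine Measurable.ite (hd (measurableSet_singleton ⊤)) measurable_const ?_
  exact Real.measurable_exp.comp (ENNReal.measurable_toReal.comp hd).neg

theorem weight_nonneg' (θ c : ℕ → ℝ) (x : ℕ → ℝ) : 0 ≤ weight θ c x := by
  unfold weight
  split_ifs
  · exact le_rfl
  · exact (Real.exp_pos _).le

theorem weight_le_one' (θ c : ℕ → ℝ) (x : ℕ → ℝ) : weight θ c x ≤ 1 := by
  unfold weight
  split_ifs
  · exact zero_le_one
  · exact Real.exp_le_one_iff.mpr (neg_nonpos.mpr ENNReal.toReal_nonneg)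

/-- C9b: monotone convergence with `hpos`, `hlog`. -/
theorem integral_log_unbounded (θ c : ℕ → ℝ)
    (hpos : ∀ᵐ x ∂cubeMeasure, 0 < weight θ c x)
    (hlog : ∫⁻ x, ENNReal.ofReal (- Real.log (weight θ c x)) ∂cubeMeasure = ⊤) :
    ∀ M : ℝ, ∃ ε : ℝ, 0 < ε ∧ ε ≤ 1 ∧
      ∫ y, Real.log ((weight θ c y) ^ 2 + ε) ∂cubeMeasure ≤ -M := by
  intro M
  set w : (ℕ → ℝ) → ℝ := weight θ c with hw
  have hwm : Measurable w := measurable_weight' θ c
  have hw0 : ∀ y, 0 ≤ w y := weight_nonneg' θ c
  have hw1 : ∀ y, w y ≤ 1 := weight_le_one' θ c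
  -- the approximating sequence
  set e : ℕ → ℝ := fun n => 1 / ((n : ℝ) + 1) with he
  have he0 : ∀ n, 0 < e n := fun n => by positivity
  have he1 : ∀ n, e n ≤ 1 := fun n => by
    rw [he]
    simp only
    rw [div_le_one (by positivity)]
    have : (0 : ℝ) ≤ n := Nat.cast_nonneg n
    linarith
  have hemono : ∀ n m : ℕ, n ≤ m → e m ≤ e n := fun n m hnm => by
    rw [he]
    simp only
    have : (n : ℝ) ≤ m := Nat.cast_le.mpr hnm
    exact one_div_le_one_div_of_le (by positivity) (by linarith)
  set g : ℕ → (ℕ → ℝ) → ℝ := fun n y => Real.log 2 - Real.log (w y ^ 2 + e n) with hg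
  have hgm : ∀ n, Measurable (g n) := fun n =>
    measurable_const.sub (Real.measurable_log.comp ((hwm.pow_const 2).add measurable_const))
  have hpos2 : ∀ n y, 0 < w y ^ 2 + e n := fun n y => by
    have := sq_nonneg (w y); have := he0 n; linarith
  have hle2 : ∀ n y, w y ^ 2 + e n ≤ 2 := fun n y => by
    have h1 : w y ^ 2 ≤ 1 := pow_le_one₀ (hw0 y) (hw1 y)
    have := he1 n; linarith
  have hg0 : ∀ n y, 0 ≤ g n y := fun n y => by
    have := Real.log_le_log (hpos2 n y) (hle2 n y)
    simp only [hg]; linarith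
  have hgb : ∀ n y, g n y ≤ Real.log 2 - Real.log (e n) := fun n y => by
    have : e n ≤ w y ^ 2 + e n := by have := sq_nonneg (w y); linarith
    have := Real.log_le_log (he0 n) this
    simp only [hg]; linarith
  have hgi : ∀ n, Integrable (g n) cubeMeasure := fun n => by
    refine Integrable.of_bound (hgm n).aestronglyMeasurable (Real.log 2 - Real.log (e n)) ?_
    refine Filter.Eventually.of_forall fun y => ?_
    rw [Real.norm_eq_abs, abs_of_nonneg (hg0 n y)]
    exact hgb n y
  set F : ℕ → (ℕ → ℝ) → ℝ≥0∞ := fun n y => ENNReal.ofReal (g n y) with hF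
  have hFm : ∀ n, Measurable (F n) := fun n => ENNReal.measurable_ofReal.comp (hgm n)
  have hFmono : Monotone F := by
    intro n m hnm y
    refine ENNReal.ofReal_le_ofReal ?_
    have h1 : w y ^ 2 + e m ≤ w y ^ 2 + e n := by have := hemono n m hnm; linarith
    have := Real.log_le_log (hpos2 m y) h1
    simp only [hg]; linarith
  -- the supremum dominates `- log w` almost everywhere
  have hdom : ∀ᵐ y ∂cubeMeasure, ENNReal.ofReal (- Real.log (w y)) ≤ ⨆ n, F n y := by
    filter_upwards [hpos] with y hy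
    have hy2 : 0 < w y ^ 2 := by positivity
    obtain ⟨n, hn⟩ := exists_nat_one_div_lt hy2
    refine le_trans ?_ (le_iSup (fun n => F n y) n)
    refine ENNReal.ofReal_le_ofReal ?_
    have h1 : w y ^ 2 + e n ≤ 2 * w y ^ 2 := by
      have : e n < w y ^ 2 := hn
      linarith
    have h2 := Real.log_le_log (hpos2 n y) h1
    have h3 : Real.log (2 * w y ^ 2) = Real.log 2 + 2 * Real.log (w y) := by
      rw [Real.log_mul (by norm_num) hy2.ne', Real.log_pow]; push_cast; ring
    have h4 : Real.log (w y) ≤ 0 := Real.log_nonpos (hw0 y) (hw1 y)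
    simp only [hg]; linarith
  have hsup : ⨆ n, ∫⁻ y, F n y ∂cubeMeasure = ⊤ := by
    rw [← lintegral_iSup hFm hFmono]
    refine top_unique ?_
    rw [← hlog]
    exact lintegral_mono_ae hdom
  have hlt : ENNReal.ofReal (M + Real.log 2) < ⨆ n, ∫⁻ y, F n y ∂cubeMeasure := by
    rw [hsup]; exact ENNReal.ofReal_lt_top
  obtain ⟨n, hn⟩ := lt_iSup_iff.mp hlt
  refine ⟨e n, he0 n, he1 n, ?_⟩
  have hint : ENNReal.ofReal (∫ y, g n y ∂cubeMeasure) = ∫⁻ y, F n y ∂cubeMeasure :=
    ofReal_integral_eq_lintegral_ofReal (hgi n) (Filter.Eventually.of_forall (hg0 n))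
  rw [← hint] at hn
  have hge : M + Real.log 2 < ∫ y, g n y ∂cubeMeasure := by
    by_cases hneg : 0 ≤ M + Real.log 2
    · exact (ENNReal.ofReal_lt_ofReal_iff_of_nonneg hneg).mp hn
    · have h0 : (0 : ℝ) ≤ ∫ y, g n y ∂cubeMeasure := integral_nonneg (hg0 n)
      linarith
  have hrew : ∀ y, Real.log (w y ^ 2 + e n) = Real.log 2 - g n y := fun y => by
    simp only [hg]; ring
  have : ∫ y, Real.log (w y ^ 2 + e n) ∂cubeMeasure
      = Real.log 2 - ∫ y, g n y ∂cubeMeasure := by
    simp_rw [hrew]
    rw [integral_sub (integrable_const _) (hgi n)]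
    simp
  rw [this]
  linarith

end Crest.Agent.Helper65.S0151
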